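import Vale.Agent.P043.R2.H196.Jump
import Vale.Agent.P043.Eu.Defs

/-!
# P043: trades are forced

If the tile is a combination of axis-parallel boxes and of discs of different radii, then for every
tiling the combination of translates of the tiling set given by the discs of each radius vanishes.
-/

set_option autoImplicit false

open MeasureTheory Set Filter Topology

noncomputable section

namespace Vale.Agent.P043.R2

open Vale.Agent.P043.Eu

/-- translation sets are locally finite -/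
theorem finite_near {Om A : Set (Fin 2 → ℝ)} {K : ℝ} (hK : ∀ x ∈ Om, ‖x‖ ≤ K)
    (hm : MeasurableSet Om) (hpos : 0 < volume Om)
    (hT : ∀ a ∈ A, ∀ b ∈ A, a ≠ b → volume ({x | x - a ∈ Om} ∩ {x | x - b ∈ Om}) = 0)
    (p : Fin 2 → ℝ) (L : ℝ) : {a | a ∈ A ∧ dist a p ≤ L}.Finite := by
  classical
  by_contra hinf
  have hV : volume (Metric.closedBall p (L + K)) ≠ ⊤ := Metric.isBounded_closedBall.measure_lt_top.ne
  obtain ⟨n, hn⟩ := ENNReal.exists_nat_mul_gt hpos.ne' hV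
  obtain ⟨S, hS, hcard⟩ := (show {a | a ∈ A ∧ dist a p ≤ L}.Infinite from hinf).exists_subset_card_eq n
  have hmeas : ∀ a : Fin 2 → ℝ, MeasurableSet {x | x - a ∈ Om} := fun a =>
    (measurable_id.sub_const a) hm
  have hvol : ∀ a : Fin 2 → ℝ, volume {x | x - a ∈ Om} = volume Om := fun a => by
    have h := measure_preimage_add_right volume (-a) Om
    rw [← h]
    congr 1
  have h1 : volume (⋃ a ∈ S, {x | x - a ∈ Om}) = ∑ a ∈ S, volume {x | x - a ∈ Om} := by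
    refine measure_biUnion_finset₀ (fun a ha b hb hab => ?_) fun a _ => (hmeas a).nullMeasurableSet
    exact hT a (hS ha).1 b (hS hb).1 hab
  have h2 : volume (⋃ a ∈ S, {x | x - a ∈ Om}) ≤ volume (Metric.closedBall p (L + K)) := by
    refine measure_mono (iUnion₂_subset fun a ha x hx => ?_)
    have e1 := (hS ha).2
    have e2 := hK _ hx
    rw [Metric.mem_closedBall]
    have e3 : dist x a = ‖x - a‖ := dist_eq_norm x a
    have := dist_triangle x a p
    linarith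
  rw [h1, Finset.sum_congr rfl fun a _ => hvol a, Finset.sum_const, hcard, nsmul_eq_mul] at h2
  exact absurd h2 (not_le.2 hn)

/-- the tiling identity near a point -/
theorem local_sum {Om A : Set (Fin 2 → ℝ)} {K : ℝ} (hK : ∀ x ∈ Om, ‖x‖ ≤ K) (hT : TilesAE Om A)
    {p : Fin 2 → ℝ} {L ρ : ℝ} (hL : ρ + K ≤ L) {F : Finset (Fin 2 → ℝ)}
    (hF : ∀ a, a ∈ F ↔ a ∈ A ∧ dist a p ≤ L) :
    ∀ᵐ x : Fin 2 → ℝ, dist x p < ρ →
      ∑ a ∈ F, Om.indicator (fun _ => (1 : ℝ)) (x - a) = 1 := by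
  classical
  have h1 : ∀ᵐ x : Fin 2 → ℝ, x ∈ ⋃ a ∈ A, {x | x - a ∈ Om} := by
    rw [ae_iff]
    exact hT.1
  have h2 : ∀ᵐ x : Fin 2 → ℝ, ∀ ab ∈ F ×ˢ F, ab.1 ≠ ab.2 →
      ¬ (x - ab.1 ∈ Om ∧ x - ab.2 ∈ Om) := by
    refine (Finset.eventually_all _).2 fun ab hab => ?_
    obtain ⟨ha, hb⟩ := Finset.mem_product.1 hab
    by_cases hne : ab.1 = ab.2
    · exact Eventually.of_forall fun x h => absurd hne h
    · have h3 := hT.2 ab.1 ((hF _).1 ha).1 ab.2 ((hF _).1 hb).1 hne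
      have h4 : ∀ᵐ x : Fin 2 → ℝ, x ∉ {x | x - ab.1 ∈ Om} ∩ {x | x - ab.2 ∈ Om} :=
        measure_eq_zero_iff_ae_notMem.1 h3
      filter_upwards [h4] with x hx _ h
      exact hx h
  filter_upwards [h1, h2] with x hx1 hx2 hxp
  obtain ⟨a, ha, hxa⟩ := mem_iUnion₂.1 hx1
  have haF : a ∈ F := by
    rw [hF]
    refine ⟨ha, ?_⟩
    have e2 := hK _ hxa
    have e3 : dist x a = ‖x - a‖ := dist_eq_norm x a
    have := dist_triangle a x p
    rw [dist_comm a x] at this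
    linarith
  rw [Finset.sum_eq_single a]
  · exact indicator_of_mem hxa (fun _ => (1 : ℝ))
  · intro b hb hba
    refine indicator_of_notMem (fun hxb => ?_) (fun _ => (1 : ℝ))
    exact hx2 (a, b) (Finset.mem_product.2 ⟨haF, hb⟩) (Ne.symm hba) ⟨hxa, hxb⟩
  · intro h
    exact absurd haF h

/-! ### local constancy -/

theorem ev_le {q : Fin 2 → ℝ} {k : Fin 2} {u : ℝ} (h : q k ≠ u) :
    ∀ᶠ x : Fin 2 → ℝ in 𝓝 q, (u ≤ x k ↔ u ≤ q k) ∧ (x k < u ↔ q k < u) := by
  have hc : Continuous fun x : Fin 2 → ℝ => x k := continuous_apply k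
  rcases lt_or_gt_of_ne h with h | h
  · filter_upwards [hc.continuousAt.eventually (Iio_mem_nhds h)] with x hx
    have hx' : x k < u := hx
    exact ⟨⟨fun h1 => absurd hx' (not_lt.2 h1), fun h1 => absurd h (not_lt.2 h1)⟩,
      ⟨fun _ => h, fun _ => hx'⟩⟩
  · filter_upwards [hc.continuousAt.eventually (Ioi_mem_nhds h)] with x hx
    have hx' : u < x k := hx
    exact ⟨⟨fun _ => le_of_lt h, fun _ => hx'.le⟩,
      ⟨fun h1 => absurd hx' (not_lt.2 h1.le), fun h1 => absurd h1 (not_lt.2 (le_of_lt h))⟩⟩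

theorem ev_box {q : Fin 2 → ℝ} {a b c d : ℝ} {v : Fin 2 → ℝ} (h1 : q 0 ≠ v 0 + a)
    (h2 : q 0 ≠ v 0 + b) (h3 : q 1 ≠ v 1 + c) (h4 : q 1 ≠ v 1 + d) :
    ∀ᶠ x : Fin 2 → ℝ in 𝓝 q, (x ∈ {x | x - v ∈ box a b c d} ↔ q ∈ {x | x - v ∈ box a b c d}) := by
  filter_upwards [ev_le h1, ev_le h2, ev_le h3, ev_le h4] with x e1 e2 e3 e4
  simp only [box, mem_ofPred_eq, Pi.sub_apply]
  constructor
  · rintro ⟨f1, f2, f3, f4⟩
    refine ⟨?_, ?_, ?_, ?_⟩
    · have := e1.1.1 (by linarith)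
      linarith
    · have := e2.2.1 (by linarith)
      linarith
    · have := e3.1.1 (by linarith)
      linarith
    · have := e4.2.1 (by linarith)
      linarith
  · rintro ⟨f1, f2, f3, f4⟩
    refine ⟨?_, ?_, ?_, ?_⟩
    · have := e1.1.2 (by linarith)
      linarith
    · have := e2.2.2 (by linarith)
      linarith
    · have := e3.1.2 (by linarith)
      linarith
    · have := e4.2.2 (by linarith)
      linarith

theorem ev_disc {q c : Fin 2 → ℝ} {r : ℝ} (h : (q 0 - c 0) ^ 2 + (q 1 - c 1) ^ 2 ≠ r ^ 2) :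
    ∀ᶠ x : Fin 2 → ℝ in 𝓝 q, (x ∈ disc c r ↔ q ∈ disc c r) := by
  have hc : Continuous fun x : Fin 2 → ℝ => (x 0 - c 0) ^ 2 + (x 1 - c 1) ^ 2 := by fun_prop
  rcases lt_or_gt_of_ne h with h | h
  · filter_upwards [hc.continuousAt.eventually (Iio_mem_nhds h)] with x hx
    exact ⟨fun _ => h, fun _ => hx⟩
  · filter_upwards [hc.continuousAt.eventually (Ioi_mem_nhds h)] with x hx
    exact ⟨fun h1 => absurd (show (x 0 - c 0) ^ 2 + (x 1 - c 1) ^ 2 < r ^ 2 from h1)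
      (not_lt.2 (le_of_lt hx)),
      fun h1 => absurd (show (q 0 - c 0) ^ 2 + (q 1 - c 1) ^ 2 < r ^ 2 from h1)
      (not_lt.2 (le_of_lt h))⟩

theorem ray_tendsto (c q : Fin 2 → ℝ) (s : ℝ) :
    Tendsto (fun ε : ℝ => fun k => c k + (1 + s * ε) * (q k - c k)) (𝓝[>] 0) (𝓝 q) := by
  have h1 : Continuous fun ε : ℝ => fun k : Fin 2 => c k + (1 + s * ε) * (q k - c k) := by
    fun_prop
  have h2 := h1.tendsto 0
  have h3 : (fun k : Fin 2 => c k + (1 + s * 0) * (q k - c k)) = q := by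
    funext k
    ring
  rw [h3] at h2
  exact h2.mono_left nhdsWithin_le_nhds

theorem circle_closure {q c : Fin 2 → ℝ} {r : ℝ} (hr : 0 < r)
    (h : (q 0 - c 0) ^ 2 + (q 1 - c 1) ^ 2 = r ^ 2) :
    q ∈ closure (interior (disc c r)) ∧ q ∈ closure (interior (disc c r)ᶜ) := by
  have hr2 : 0 < r ^ 2 := by positivity
  constructor
  · rw [(isOpen_disc c r).interior_eq]
    refine mem_closure_of_tendsto (ray_tendsto c q (-1)) ?_
    filter_upwards [Ioo_mem_nhdsGT (show (0 : ℝ) < 1 by norm_num)] with ε hε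
    show (c 0 + (1 + -1 * ε) * (q 0 - c 0) - c 0) ^ 2 + (c 1 + (1 + -1 * ε) * (q 1 - c 1) - c 1) ^ 2
      < r ^ 2
    have e1 : (c 0 + (1 + -1 * ε) * (q 0 - c 0) - c 0) ^ 2 +
        (c 1 + (1 + -1 * ε) * (q 1 - c 1) - c 1) ^ 2 = (1 - ε) ^ 2 * r ^ 2 := by
      rw [← h]; ring
    rw [e1]
    have h1 := hε.1
    have h2 := hε.2
    nlinarith [mul_pos h1 hr2, mul_pos (sub_pos.2 h2) (mul_pos h1 hr2)]
  · have hop : IsOpen {x : Fin 2 → ℝ | r ^ 2 < (x 0 - c 0) ^ 2 + (x 1 - c 1) ^ 2} :=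
      isOpen_lt continuous_const (by fun_prop)
    have hsub : {x : Fin 2 → ℝ | r ^ 2 < (x 0 - c 0) ^ 2 + (x 1 - c 1) ^ 2} ⊆
        interior (disc c r)ᶜ := by
      refine interior_maximal (fun x hx h1 => ?_) hop
      exact absurd (show (x 0 - c 0) ^ 2 + (x 1 - c 1) ^ 2 < r ^ 2 from h1)
        (not_lt.2 (le_of_lt hx))
    refine closure_mono hsub (mem_closure_of_tendsto (ray_tendsto c q 1) ?_)
    filter_upwards [self_mem_nhdsWithin] with ε hε
    show r ^ 2 < (c 0 + (1 + 1 * ε) * (q 0 - c 0) - c 0) ^ 2 +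
      (c 1 + (1 + 1 * ε) * (q 1 - c 1) - c 1) ^ 2
    have e1 : (c 0 + (1 + 1 * ε) * (q 0 - c 0) - c 0) ^ 2 +
        (c 1 + (1 + 1 * ε) * (q 1 - c 1) - c 1) ^ 2 = (1 + ε) ^ 2 * r ^ 2 := by
      rw [← h]; ring
    rw [e1]
    have h1 : 0 < ε := hε
    nlinarith [mul_pos h1 hr2, mul_pos h1 (mul_pos h1 hr2)]

/-- **Trades are forced.** -/
theorem trade_force {Om A : Set (Fin 2 → ℝ)} (hb : Bornology.IsBounded Om)
    (hm : MeasurableSet Om) (hpos : 0 < volume Om) (hT : TilesAE Om A)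
    {β ι : Type} [DecidableEq β] [DecidableEq ι] (J : Finset β) (b1 b2 b3 b4 : β → ℝ)
    (nn : β → ℝ) (I : Finset ι) (rad : ι → ℝ) (hrad : ∀ i ∈ I, 0 < rad i)
    (hinj : ∀ i ∈ I, ∀ i' ∈ I, rad i = rad i' → i = i')
    (Q : ι → Finset (Fin 2 → ℝ)) (sg : ι → (Fin 2 → ℝ) → ℝ)
    (hOm : ∀ x, Om.indicator (fun _ => (1 : ℝ)) x =
      ∑ j ∈ J, nn j * (box (b1 j) (b2 j) (b3 j) (b4 j)).indicator (fun _ => (1 : ℝ)) x +
      ∑ i ∈ I, ∑ q ∈ Q i, sg i q * (disc q (rad i)).indicator (fun _ => (1 : ℝ)) x) :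
    ∀ i ∈ I, ∀ p : Fin 2 → ℝ, ∑ q ∈ Q i, sg i q * A.indicator (fun _ => (1 : ℝ)) (p - q) = 0 := by
  classical
  intro i₀ hi₀ p
  obtain ⟨K, hK⟩ := hb.exists_norm_le
  set ρ := rad i₀ + 1 with hρ
  have hr₀ := hrad i₀ hi₀
  set L : ℝ := |ρ + K| + ∑ q ∈ Q i₀, ‖q‖ with hLdef
  have hL1 : ρ + K ≤ L := by
    have h1 : 0 ≤ ∑ q ∈ Q i₀, ‖q‖ := Finset.sum_nonneg fun q _ => norm_nonneg q
    have := le_abs_self (ρ + K)
    linarith
  have hL2 : ∀ q ∈ Q i₀, ‖q‖ ≤ L := by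
    intro q hq
    have h1 := Finset.single_le_sum (f := fun q : Fin 2 → ℝ => ‖q‖) (fun q _ => norm_nonneg q) hq
    have := abs_nonneg (ρ + K)
    linarith
  have hfin := finite_near hK hm hpos hT.2 p L
  set F : Finset (Fin 2 → ℝ) := hfin.toFinset with hFdef
  have hF : ∀ a, a ∈ F ↔ a ∈ A ∧ dist a p ≤ L := fun a => by
    rw [hFdef, Set.Finite.mem_toFinset]
    rfl
  have hsum := local_sum hK hT hL1 hF
  -- the grouped family
  let cen : ι → Finset (Fin 2 → ℝ) := fun i => insert p ((F ×ˢ Q i).image fun aq => aq.1 + aq.2)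
  let E : (β × (Fin 2 → ℝ)) ⊕ (Σ _ : ι, (Fin 2 → ℝ)) → Set (Fin 2 → ℝ) := fun k =>
    Sum.elim (fun ja => {x | x - ja.2 ∈ box (b1 ja.1) (b2 ja.1) (b3 ja.1) (b4 ja.1)})
      (fun ic => disc ic.2 (rad ic.1)) k
  let m : (β × (Fin 2 → ℝ)) ⊕ (Σ _ : ι, (Fin 2 → ℝ)) → ℝ := fun k =>
    Sum.elim (fun ja => nn ja.1)
      (fun ic => ∑ aq ∈ F ×ˢ Q ic.1, if aq.1 + aq.2 = ic.2 then sg ic.1 aq.2 else 0) k
  let s : Finset ((β × (Fin 2 → ℝ)) ⊕ (Σ _ : ι, (Fin 2 → ℝ))) :=
    (J ×ˢ F).disjSum (I.sigma cen)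
  have htr : ∀ (a q x : Fin 2 → ℝ) (r : ℝ), (disc q r).indicator (fun _ => (1 : ℝ)) (x - a) =
      (disc (a + q) r).indicator (fun _ => (1 : ℝ)) x := by
    intro a q x r
    have hiff : x - a ∈ disc q r ↔ x ∈ disc (a + q) r := by
      simp only [disc, mem_ofPred_eq, Pi.sub_apply, Pi.add_apply]
      rw [show x 0 - a 0 - q 0 = x 0 - (a 0 + q 0) by ring,
        show x 1 - a 1 - q 1 = x 1 - (a 1 + q 1) by ring]
    by_cases hx : x - a ∈ disc q r
    · rw [indicator_of_mem hx, indicator_of_mem (hiff.1 hx)]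
    · rw [indicator_of_notMem hx, indicator_of_notMem fun h => hx (hiff.2 h)]
  have hgroup : ∀ x, ∑ a ∈ F, Om.indicator (fun _ => (1 : ℝ)) (x - a) =
      ∑ k ∈ s, m k * (E k).indicator (fun _ => (1 : ℝ)) x := by
    intro x
    have e0 : ∑ k ∈ s, m k * (E k).indicator (fun _ => (1 : ℝ)) x =
        ∑ ja ∈ J ×ˢ F, nn ja.1 * {x | x - ja.2 ∈ box (b1 ja.1) (b2 ja.1) (b3 ja.1)
          (b4 ja.1)}.indicator (fun _ => (1 : ℝ)) x +
        ∑ i ∈ I, ∑ c ∈ cen i, (∑ aq ∈ F ×ˢ Q i, if aq.1 + aq.2 = c then sg i aq.2 else 0) *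
          (disc c (rad i)).indicator (fun _ => (1 : ℝ)) x := by
      show ∑ k ∈ (J ×ˢ F).disjSum (I.sigma cen), m k * (E k).indicator (fun _ => (1 : ℝ)) x = _
      rw [Finset.sum_disjSum, Finset.sum_sigma]
      rfl
    rw [e0]
    simp_rw [hOm]
    rw [Finset.sum_add_distrib]
    congr 1
    · rw [Finset.sum_product_right]
      refine Finset.sum_congr rfl fun a _ => Finset.sum_congr rfl fun j _ => ?_
      rfl
    · rw [Finset.sum_comm]
      refine Finset.sum_congr rfl fun i hi => ?_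
      have e1 : ∀ c ∈ cen i, (∑ aq ∈ F ×ˢ Q i, if aq.1 + aq.2 = c then sg i aq.2 else 0) *
          (disc c (rad i)).indicator (fun _ => (1 : ℝ)) x =
          ∑ aq ∈ F ×ˢ Q i, if aq.1 + aq.2 = c then sg i aq.2 *
            (disc (aq.1 + aq.2) (rad i)).indicator (fun _ => (1 : ℝ)) x else 0 := by
        intro c _
        rw [Finset.sum_mul]
        refine Finset.sum_congr rfl fun aq _ => ?_
        by_cases h : aq.1 + aq.2 = c
        · rw [if_pos h, if_pos h, h]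
        · rw [if_neg h, if_neg h, zero_mul]
      rw [Finset.sum_congr rfl e1]
      have e2 : ∀ aq ∈ F ×ˢ Q i, (∑ c ∈ cen i, if aq.1 + aq.2 = c then sg i aq.2 *
            (disc (aq.1 + aq.2) (rad i)).indicator (fun _ => (1 : ℝ)) x else 0) =
          sg i aq.2 * (disc aq.2 (rad i)).indicator (fun _ => (1 : ℝ)) (x - aq.1) := by
        intro aq haq
        rw [Finset.sum_ite_eq, if_pos, htr]
        exact Finset.mem_insert_of_mem (Finset.mem_image_of_mem _ haq)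
      symm
      rw [Finset.sum_comm, Finset.sum_congr rfl e2, Finset.sum_product]
  -- a point of the circle off everything else
  let ln : Finset (ℝ × ℝ × ℝ) :=
    (((I.sigma cen).filter fun ic => ic.2 ≠ p).image fun ic =>
      (2 * (ic.2 0 - p 0), 2 * (ic.2 1 - p 1),
        rad i₀ ^ 2 - rad ic.1 ^ 2 + ic.2 0 ^ 2 + ic.2 1 ^ 2 - p 0 ^ 2 - p 1 ^ 2)) ∪
    (((J ×ˢ F).image fun ja => ((1 : ℝ), (0 : ℝ), ja.2 0 + b1 ja.1)) ∪
    (((J ×ˢ F).image fun ja => ((1 : ℝ), (0 : ℝ), ja.2 0 + b2 ja.1)) ∪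
    (((J ×ˢ F).image fun ja => ((0 : ℝ), (1 : ℝ), ja.2 1 + b3 ja.1)) ∪
    ((J ×ˢ F).image fun ja => ((0 : ℝ), (1 : ℝ), ja.2 1 + b4 ja.1)))))
  have hln : ∀ k ∈ ln, ¬ (k.1 = 0 ∧ k.2.1 = 0) := by
    intro k hk
    simp only [ln, Finset.mem_union, Finset.mem_image, Finset.mem_filter] at hk
    rcases hk with ⟨ic, ⟨-, hne⟩, rfl⟩ | ⟨ja, -, rfl⟩ | ⟨ja, -, rfl⟩ | ⟨ja, -, rfl⟩ | ⟨ja, -, rfl⟩
    · rintro ⟨h1, h2⟩
      apply hne
      funext t
      fin_cases t
      · show ic.2 0 = p 0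
        simp only at h1
        linarith
      · show ic.2 1 = p 1
        simp only at h2
        linarith
    all_goals
      rintro ⟨h1, h2⟩
      simp at h1 h2
  obtain ⟨q, hq, hoff⟩ := exists_circle p hr₀ ln (fun k => k.1) (fun k => k.2.1) (fun k => k.2.2) hln
  have hk₀ : (Sum.inr ⟨i₀, p⟩ : (β × (Fin 2 → ℝ)) ⊕ (Σ _ : ι, (Fin 2 → ℝ))) ∈ s := by
    show _ ∈ (J ×ˢ F).disjSum (I.sigma cen)
    rw [Finset.inr_mem_disjSum, Finset.mem_sigma]
    exact ⟨hi₀, Finset.mem_insert_self _ _⟩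
  have hcl := circle_closure hr₀ hq
  have hm0 := jump_zero (s := s) (E := E) (m := m) (q := q) hk₀ (C := 1)
    (fun k hk hne => by
      rcases k with ja | ic
      · have hja : ja ∈ J ×ˢ F := Finset.inl_mem_disjSum.1 hk
        have m1 : ((1 : ℝ), (0 : ℝ), ja.2 0 + b1 ja.1) ∈ ln := by
          simp only [ln, Finset.mem_union, Finset.mem_image]
          exact Or.inr (Or.inl ⟨ja, hja, rfl⟩)
        have m2 : ((1 : ℝ), (0 : ℝ), ja.2 0 + b2 ja.1) ∈ ln := by
          simp only [ln, Finset.mem_union, Finset.mem_image]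
          exact Or.inr (Or.inr (Or.inl ⟨ja, hja, rfl⟩))
        have m3 : ((0 : ℝ), (1 : ℝ), ja.2 1 + b3 ja.1) ∈ ln := by
          simp only [ln, Finset.mem_union, Finset.mem_image]
          exact Or.inr (Or.inr (Or.inr (Or.inl ⟨ja, hja, rfl⟩)))
        have m4 : ((0 : ℝ), (1 : ℝ), ja.2 1 + b4 ja.1) ∈ ln := by
          simp only [ln, Finset.mem_union, Finset.mem_image]
          exact Or.inr (Or.inr (Or.inr (Or.inr ⟨ja, hja, rfl⟩)))
        have g1 := hoff _ m1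
        have g2 := hoff _ m2
        have g3 := hoff _ m3
        have g4 := hoff _ m4
        simp only [one_mul, zero_mul, add_zero, zero_add] at g1 g2 g3 g4
        exact ev_box g1 g2 g3 g4
      · have hic : ic ∈ I.sigma cen := Finset.inr_mem_disjSum.1 hk
        refine ev_disc fun h => ?_
        by_cases hcp : ic.2 = p
        · rw [hcp, hq] at h
          have h1 : rad i₀ = rad ic.1 := by
            have h2 := hrad ic.1 (Finset.mem_sigma.1 hic).1
            nlinarith [sq_nonneg (rad i₀ - rad ic.1)]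
          have h2 := hinj i₀ hi₀ ic.1 (Finset.mem_sigma.1 hic).1 h1
          apply hne
          obtain ⟨i, c⟩ := ic
          simp only at hcp h2
          rw [hcp, h2]
        · have m1 : (2 * (ic.2 0 - p 0), 2 * (ic.2 1 - p 1),
              rad i₀ ^ 2 - rad ic.1 ^ 2 + ic.2 0 ^ 2 + ic.2 1 ^ 2 - p 0 ^ 2 - p 1 ^ 2) ∈ ln := by
            simp only [ln, Finset.mem_union, Finset.mem_image, Finset.mem_filter]
            exact Or.inl ⟨ic, ⟨hic, hcp⟩, rfl⟩
          apply hoff _ m1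
          simp only
          linarith)
    hcl.1 hcl.2
    ⟨Metric.ball p ρ, Metric.isOpen_ball.mem_nhds (by
      rw [Metric.mem_ball, hρ, dist_pi_lt_iff (by linarith)]
      intro t
      rw [Real.dist_eq]
      have h1 : (q t - p t) ^ 2 ≤ rad i₀ ^ 2 := by
        fin_cases t
        · show (q 0 - p 0) ^ 2 ≤ _
          nlinarith [sq_nonneg (q 1 - p 1)]
        · show (q 1 - p 1) ^ 2 ≤ _
          nlinarith [sq_nonneg (q 0 - p 0)]
      have h2 := abs_le_of_sq_le_sq h1 hr₀.le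
      have h3 : |q t - p t| ≤ rad i₀ := h2
      linarith), by
      filter_upwards [hsum] with x hx hxO
      rw [← hgroup]
      exact hx (Metric.mem_ball.1 hxO)⟩
  -- evaluate the coefficient
  have hval : m (Sum.inr ⟨i₀, p⟩) =
      ∑ q ∈ Q i₀, sg i₀ q * A.indicator (fun _ => (1 : ℝ)) (p - q) := by
    show (∑ aq ∈ F ×ˢ Q i₀, if aq.1 + aq.2 = p then sg i₀ aq.2 else 0) = _
    rw [Finset.sum_product_right]
    refine Finset.sum_congr rfl fun q hq => ?_
    by_cases hA : p - q ∈ A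
    · have hpF : p - q ∈ F := by
        rw [hF]
        refine ⟨hA, ?_⟩
        rw [dist_eq_norm, show p - q - p = -q by abel, norm_neg]
        exact hL2 q hq
      rw [indicator_of_mem hA, mul_one, Finset.sum_eq_single (p - q)]
      · rw [if_pos (by simp)]
      · intro a _ ha
        rw [if_neg]
        intro h
        apply ha
        rw [← h]
        simp
      · intro h
        exact absurd hpF h
    · rw [indicator_of_notMem hA, mul_zero]
      refine Finset.sum_eq_zero fun a ha => ?_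
      rw [if_neg]
      intro h
      apply hA
      rw [← h]
      simpa using ((hF a).1 ha).1
  rw [← hval]
  exact hm0

end Vale.Agent.P043.R2
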