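import Mathlib

/-!
# P043: jumps across circular arcs

A linear combination of indicators of discs and axis-parallel boxes which is constant almost
everywhere near a disc has coefficient zero at this disc.
-/

set_option autoImplicit false

open MeasureTheory Set Filter Topology

noncomputable section

namespace Vale.Agent.P043.R2

/-- open Euclidean disc of the plane -/
def disc (c : Fin 2 → ℝ) (r : ℝ) : Set (Fin 2 → ℝ) :=
  {x | (x 0 - c 0) ^ 2 + (x 1 - c 1) ^ 2 < r ^ 2}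

/-- axis-parallel box -/
def box (a b c d : ℝ) : Set (Fin 2 → ℝ) := {x | a ≤ x 0 ∧ x 0 < b ∧ c ≤ x 1 ∧ x 1 < d}

theorem isOpen_disc (c : Fin 2 → ℝ) (r : ℝ) : IsOpen (disc c r) :=
  isOpen_lt (by fun_prop) continuous_const

/-- **local jump lemma** -/
theorem jump_zero {ι : Type*} [DecidableEq ι] {s : Finset ι} {E : ι → Set (Fin 2 → ℝ)} {m : ι → ℝ}
    {q : Fin 2 → ℝ} {k₀ : ι} (hk₀ : k₀ ∈ s) {C : ℝ}
    (hloc : ∀ k ∈ s, k ≠ k₀ → ∀ᶠ x in 𝓝 q, (x ∈ E k ↔ q ∈ E k))
    (h1 : q ∈ closure (interior (E k₀))) (h2 : q ∈ closure (interior (E k₀)ᶜ))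
    (hC : ∃ O ∈ 𝓝 q, ∀ᵐ x : Fin 2 → ℝ, x ∈ O →
      ∑ k ∈ s, m k * (E k).indicator (fun _ => (1 : ℝ)) x = C) : m k₀ = 0 := by
  classical
  obtain ⟨O, hO, hae⟩ := hC
  have hev : ∀ᶠ x in 𝓝 q, x ∈ O ∧ ∀ k ∈ s, k ≠ k₀ → (x ∈ E k ↔ q ∈ E k) := by
    refine (eventually_mem_set.2 hO).and ?_
    have := (Finset.eventually_all (l := 𝓝 q) s (p := fun k x => k ≠ k₀ → (x ∈ E k ↔ q ∈ E k))).2
      fun k hk => by
        by_cases hkk : k = k₀
        · exact Eventually.of_forall fun x h => absurd hkk h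
        · filter_upwards [hloc k hk hkk] with x hx _
          exact hx
    filter_upwards [this] with x hx k hk hkk
    exact hx k hk hkk
  obtain ⟨N, hN, hNo, hqN⟩ := mem_nhds_iff.1 hev
  -- points of both kinds
  have key : ∀ D : Set (Fin 2 → ℝ), IsOpen D → q ∈ closure D → ∃ x ∈ N ∩ D,
      ∑ k ∈ s, m k * (E k).indicator (fun _ => (1 : ℝ)) x = C := by
    intro D hD hq
    have hne : (N ∩ D).Nonempty := mem_closure_iff.1 hq N hNo hqN
    have hop : IsOpen (N ∩ D) := hNo.inter hD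
    have hpos : volume (N ∩ D) ≠ 0 := (hop.measure_pos volume hne).ne'
    by_contra hcon
    push Not at hcon
    apply hpos
    refine measure_mono_null (fun x hx => ?_) (ae_iff.1 hae)
    simp only [mem_ofPred_eq, Classical.not_imp]
    exact ⟨(hN hx.1).1, hcon x hx⟩
  obtain ⟨x1, hx1, e1⟩ := key _ isOpen_interior h1
  obtain ⟨x2, hx2, e2⟩ := key _ isOpen_interior h2
  have hsum : ∀ x ∈ N, ∑ k ∈ s.erase k₀, m k * (E k).indicator (fun _ => (1 : ℝ)) x =
      ∑ k ∈ s.erase k₀, m k * (E k).indicator (fun _ => (1 : ℝ)) q := by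
    intro x hx
    refine Finset.sum_congr rfl fun k hk => ?_
    have hk' := Finset.mem_erase.1 hk
    have := (hN hx).2 k hk'.2 hk'.1
    by_cases hxk : x ∈ E k
    · rw [indicator_of_mem hxk, indicator_of_mem (this.1 hxk)]
    · rw [indicator_of_notMem hxk, indicator_of_notMem fun h => hxk (this.2 h)]
  rw [← Finset.add_sum_erase s _ hk₀, hsum _ hx1.1, indicator_of_mem (interior_subset hx1.2)] at e1
  rw [← Finset.add_sum_erase s _ hk₀, hsum _ hx2.1,
    indicator_of_notMem (interior_subset hx2.2)] at e2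
  linarith

/-- a quadratic polynomial with a nonzero coefficient has finitely many zeros -/
theorem finite_quad {a b c : ℝ} (h : ¬ (a = 0 ∧ b = 0 ∧ c = 0)) :
    {t : ℝ | a * t ^ 2 + b * t + c = 0}.Finite := by
  classical
  set p : Polynomial ℝ := Polynomial.C a * Polynomial.X ^ 2 + Polynomial.C b * Polynomial.X +
    Polynomial.C c with hp
  have hp0 : p ≠ 0 := by
    intro h0
    apply h
    have e0 := congrArg (fun r => Polynomial.coeff r 0) h0
    have e1 := congrArg (fun r => Polynomial.coeff r 1) h0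
    have e2 := congrArg (fun r => Polynomial.coeff r 2) h0
    simp [hp, Polynomial.coeff_X, Polynomial.coeff_C] at e0 e1 e2
    exact ⟨e2, e1, e0⟩
  refine (p.roots.toFinset.finite_toSet).subset fun t ht => ?_
  rw [Finset.mem_coe, Multiset.mem_toFinset, Polynomial.mem_roots hp0, Polynomial.IsRoot.def]
  simpa [hp] using ht

/-- a point of the circle off finitely many lines -/
theorem exists_circle (c : Fin 2 → ℝ) {r : ℝ} (hr : 0 < r) {κ : Type*} (L : Finset κ)
    (α β γ : κ → ℝ) (hL : ∀ k ∈ L, ¬ (α k = 0 ∧ β k = 0)) :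
    ∃ q : Fin 2 → ℝ, (q 0 - c 0) ^ 2 + (q 1 - c 1) ^ 2 = r ^ 2 ∧
      ∀ k ∈ L, α k * q 0 + β k * q 1 ≠ γ k := by
  classical
  let P : ℝ → Fin 2 → ℝ := fun t => ![c 0 + r * ((1 - t ^ 2) / (1 + t ^ 2)),
    c 1 + r * (2 * t / (1 + t ^ 2))]
  have hfin : ∀ k ∈ L, {t : ℝ | α k * P t 0 + β k * P t 1 = γ k}.Finite := by
    intro k hk
    set g := γ k - α k * c 0 - β k * c 1 with hg
    have h0 : ¬ (-(α k * r + g) = 0 ∧ 2 * (β k * r) = 0 ∧ α k * r - g = 0) := by
      rintro ⟨h1, h2, h3⟩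
      apply hL k hk
      have h4 : α k * r = 0 := by linarith
      have h5 : β k * r = 0 := by linarith
      exact ⟨(mul_eq_zero.1 h4).resolve_right hr.ne', (mul_eq_zero.1 h5).resolve_right hr.ne'⟩
    refine (finite_quad h0).subset fun t ht => ?_
    have hpos : (0 : ℝ) < 1 + t ^ 2 := by positivity
    have e1 : P t 0 = c 0 + r * ((1 - t ^ 2) / (1 + t ^ 2)) := rfl
    have e2 : P t 1 = c 1 + r * (2 * t / (1 + t ^ 2)) := rfl
    simp only [mem_ofPred_eq, e1, e2] at ht ⊢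
    have e3 : α k * (r * ((1 - t ^ 2) / (1 + t ^ 2))) + β k * (r * (2 * t / (1 + t ^ 2))) = g := by
      rw [hg]; linarith
    field_simp at e3
    linarith
  have hU : (⋃ k ∈ L, {t : ℝ | α k * P t 0 + β k * P t 1 = γ k}).Finite :=
    L.finite_toSet.biUnion fun k hk => hfin k hk
  obtain ⟨t, ht⟩ := hU.infinite_compl.nonempty
  refine ⟨P t, ?_, fun k hk h => ht (mem_biUnion hk h)⟩
  have hpos : (0 : ℝ) < 1 + t ^ 2 := by positivity
  have e1 : P t 0 = c 0 + r * ((1 - t ^ 2) / (1 + t ^ 2)) := rfl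
  have e2 : P t 1 = c 1 + r * (2 * t / (1 + t ^ 2)) := rfl
  rw [e1, e2]
  field_simp
  ring

end Vale.Agent.P043.R2
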